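import Vale.Agent.P046.Upper
import Vale.Agent.P046.Lower
import Vale.Agent.P046.Term

open Filter

namespace Vale.Agent.Results.P046.PolyLog

open Vale.Agent.P046

theorem result :
    (∀ n : ℕ, ∀ G ∈ (run (n ^ 2) (⊤ : SimpleGraph (Fin n))).support, G.CliqueFree 3) ∧
    ∃ c C : ℝ, 0 < c ∧ ∀ᶠ n : ℕ in atTop,
      c * (n : ℝ) ^ (3 / 2 : ℝ) / Real.log n ^ (7 / 2 : ℝ) ≤ ∑' j, (law n j).toReal * (j : ℝ) ∧
      ∑' j, (law n j).toReal * (j : ℝ) ≤ C * (n : ℝ) ^ (3 / 2 : ℝ) * √(Real.log n) ∧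
      ∀ L : ℝ, 1 ≤ L →
        ((law n).toOuterMeasure {j | L * (n : ℝ) ^ (3 / 2 : ℝ) * √(Real.log n) < j}).toReal ≤
          C / L ^ 2 := by
  refine ⟨fun n => run_free _ _ (proc_ncard ⊤), ?_⟩
  obtain ⟨c, hc, h⟩ := lower_mean
  refine ⟨c, 10 ^ 12, hc, ?_⟩
  filter_upwards [h, eventually_ge_atTop 100] with n h1 h2
  refine ⟨h1, upper_mean h2, fun L hL => (upper_tail h2 hL).trans ?_⟩
  gcongr <;> norm_num

end Vale.Agent.Results.P046.PolyLog
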