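import Vale.Agent.P046.WLower
import Vale.Agent.P046.Term

open Filter

namespace Vale.Agent.Results.P046.TwoSided

open Vale.Agent.P046

theorem result :
    (∀ n : ℕ, ∀ G ∈ (run (n ^ 2) (⊤ : SimpleGraph (Fin n))).support, G.CliqueFree 3) ∧
    (∀ ε : ℝ, 0 < ε → ∃ c C : ℝ, 0 < c ∧ ∀ᶠ n : ℕ in atTop,
      ((law n).toOuterMeasure
        {j | (j : ℝ) ≤ c * (n : ℝ) ^ (3 / 2 : ℝ) / Real.log n ^ (7 / 2 : ℝ)}).toReal ≤ ε ∧
      ((law n).toOuterMeasure {j | C * (n : ℝ) ^ (3 / 2 : ℝ) * √(Real.log n) < j}).toReal ≤ ε) ∧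
    ∃ c C : ℝ, 0 < c ∧ ∀ᶠ n : ℕ in atTop,
      c * (n : ℝ) ^ (3 / 2 : ℝ) / Real.log n ^ (7 / 2 : ℝ) ≤ ∑' j, (law n j).toReal * (j : ℝ) ∧
      ∑' j, (law n j).toReal * (j : ℝ) ≤ C * (n : ℝ) ^ (3 / 2 : ℝ) * √(Real.log n) := by
  refine ⟨fun n => run_free _ _ (proc_ncard ⊤), fun ε hε => ?_, ?_⟩
  · obtain ⟨c, hc, h⟩ := lower_tail hε
    have h0 : 0 < 10 ^ 11 / ε := by positivity
    refine ⟨c, 10 ^ 11 / ε + 1, hc, ?_⟩
    filter_upwards [h, eventually_ge_atTop 100] with n h1 h2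
    refine ⟨h1, (upper_tail h2 (by linarith)).trans ?_⟩
    rw [div_le_iff₀ (by positivity)]
    have h3 : ε * (10 ^ 11 / ε) = 10 ^ 11 := by field_simp
    nlinarith [mul_pos hε (mul_pos h0 h0)]
  · obtain ⟨c, hc, h⟩ := lower_mean
    refine ⟨c, 10 ^ 12, hc, ?_⟩
    filter_upwards [h, eventually_ge_atTop 100] with n h1 h2
    exact ⟨h1, upper_mean h2⟩

end Vale.Agent.Results.P046.TwoSided
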